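import Vale.Agent.H38.P141Configs

/-!
# P141 : an explicit region of Holder tuples at which the trilinear Hilbert transform is unbounded

Notation of the statement (all definitions are in `Vale/Agent/H38/P141Defs.lean`):
`triHilbert f₁ f₂ f₃` is the principal value `lim_{ε→0+, R→∞} ∫_{ε<|t|<R} f₁(x-t) f₂(x-2t) f₃(x-3t) dt/t`,
`IsHolderTuple p₁ p₂ p₃ r` says `1 < p₁,p₂,p₃ ≤ ∞`, `0 < r < ∞`, `1/r = 1/p₁+1/p₂+1/p₃`, and
`BoundedAt p₁ p₂ p₃ r` says that some finite `C` bounds `‖T(f₁,f₂,f₃)‖_{L^r}` by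
`C ‖f₁‖_{L^{p₁}} ‖f₂‖_{L^{p₂}} ‖f₃‖_{L^{p₃}}` for all Schwartz `f₁, f₂, f₃`.

The theorem has four parts.
1. `T` is bounded at no Holder tuple with `r ≤ 11/25`.
2. `T` is bounded at no Holder tuple for which `(1/p₁, 1/p₂, 1/p₃)` satisfies one of three
   explicit linear inequalities.
3. For every `ε > 0` there is a Holder tuple with `1/2 - ε < r < 1/2` at which `T` is not bounded.
4. General criterion: if `G` is a finite set of integer pairs `(u, v)` (each standing for the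
   four-term progression `u, v, 2v-u, 3v-2u`) whose last terms `3v-2u` are pairwise incongruent
   modulo `b ≥ 2`, and `b · N_C^{1/p₁} · N_B^{1/p₂} · N_A^{1/p₃} < |G|^{1/r}`, where `N_A`, `N_B`,
   `N_C` are the numbers of distinct first, second and third terms, then `T` is not bounded at
   the Holder tuple `(p₁,p₂,p₃,r)`.
-/

namespace Vale.Agent.Results.P141.A_UnboundedRegion

open Vale.Agent.H38.P141
open scoped ENNReal

theorem result :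
    (∀ p₁ p₂ p₃ r : ℝ≥0∞, IsHolderTuple p₁ p₂ p₃ r → r ≤ 11 / 25 → ¬ BoundedAt p₁ p₂ p₃ r) ∧
    (∀ p₁ p₂ p₃ r : ℝ≥0∞, IsHolderTuple p₁ p₂ p₃ r →
      (1 < 149 / 500 * p₁⁻¹.toReal + 1 / 2 * p₂⁻¹.toReal + 1 / 2 * p₃⁻¹.toReal ∨
        1 < 1 / 2 * p₁⁻¹.toReal + 267 / 1000 * p₂⁻¹.toReal + 1 / 2 * p₃⁻¹.toReal ∨
        1 < 1 / 2 * p₁⁻¹.toReal + 1 / 2 * p₂⁻¹.toReal + 149 / 500 * p₃⁻¹.toReal) →
      ¬ BoundedAt p₁ p₂ p₃ r) ∧
    (∀ ε : ℝ, 0 < ε → ∃ p₁ p₂ p₃ r : ℝ≥0∞, IsHolderTuple p₁ p₂ p₃ r ∧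
      1 / 2 - ε < r.toReal ∧ r.toReal < 1 / 2 ∧ ¬ BoundedAt p₁ p₂ p₃ r) ∧
    (∀ (G : Finset (ℤ × ℤ)) (b : ℕ), 2 ≤ b →
      (∀ p ∈ G, ∀ q ∈ G, (b : ℤ) ∣ (3 * p.2 - 2 * p.1) - (3 * q.2 - 2 * q.1) → p = q) →
      ∀ p₁ p₂ p₃ r : ℝ≥0∞, IsHolderTuple p₁ p₂ p₃ r →
        (b : ℝ) * ((G.image (fun p : ℤ × ℤ => 2 * p.2 - p.1)).card : ℝ) ^ p₁⁻¹.toReal
            * ((G.image Prod.snd).card : ℝ) ^ p₂⁻¹.toReal
            * ((G.image Prod.fst).card : ℝ) ^ p₃⁻¹.toReal < (G.card : ℝ) ^ r⁻¹.toReal →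
        ¬ BoundedAt p₁ p₂ p₃ r) :=
  ⟨fun _ _ _ _ h hr => unbounded_of_r_le h hr,
    fun _ _ _ _ h hlin => unbounded_of_lin h hlin,
    unbounded_near_half,
    fun G b hb hinj _ _ _ _ h hcrit => unbounded_of_config G b hb hinj h hcrit⟩

end Vale.Agent.Results.P141.A_UnboundedRegion
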