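import Vale.Agent.H38.P141Configs

/-!
# P141 : necessary conditions for boundedness of the trilinear Hilbert transform

The statement uses no definition of this project.  The trilinear Hilbert transform of
`f₁, f₂, f₃` at `x` is written out as the principal value
`lim_{ε→0+, R→∞} ∫_{ε<|t|<R} f₁(x-t) f₂(x-2t) f₃(x-3t) dt/t`
(`limUnder` along the product of the filters `𝓝[>] 0` and `atTop`), a Holder tuple is
`(p₁,p₂,p₃,r)` with `1 < p₁,p₂,p₃ ≤ ∞`, `0 < r < ∞`, `1/r = 1/p₁+1/p₂+1/p₃`, and boundedness at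
the tuple means that some finite `C` bounds the `L^r` (quasi-)norm of the transform by
`C ‖f₁‖_{L^{p₁}} ‖f₂‖_{L^{p₂}} ‖f₃‖_{L^{p₃}}` for all Schwartz functions.

First part: if the transform is bounded at a Holder tuple, then `r > 11/25`, the three linear
inequalities below hold for `(1/p₁, 1/p₂, 1/p₃)`, and
`|G|^{1/r} ≤ b · N_C^{1/p₁} · N_B^{1/p₂} · N_A^{1/p₃}` for every finite set `G` of integer pairs
`(u, v)` whose values `3v-2u` are pairwise incongruent modulo `b ≥ 2`, where `N_A`, `N_B`, `N_C`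
are the numbers of distinct values of `u`, `v`, `2v-u` on `G`.

Second part: for every `ε > 0` there is a Holder tuple with `1/2 - ε < r < 1/2` at which the
transform is not bounded.

This is the hand-in `A_UnboundedRegion` of this folder in contrapositive form, with its three
definitions written out.
-/

namespace Vale.Agent.Results.P141.B_NecessaryConditions

open Vale.Agent.H38.P141 MeasureTheory Filter Topology
open scoped ENNReal NNReal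

theorem result :
    (∀ p₁ p₂ p₃ r : ℝ≥0∞, 1 < p₁ → 1 < p₂ → 1 < p₃ → 0 < r → r < ⊤ →
      r⁻¹ = p₁⁻¹ + p₂⁻¹ + p₃⁻¹ →
      (∃ C : ℝ≥0, ∀ f₁ f₂ f₃ : SchwartzMap ℝ ℂ,
        eLpNorm (fun x : ℝ => limUnder ((𝓝[>] (0 : ℝ)) ×ˢ (atTop : Filter ℝ))
            (fun q : ℝ × ℝ => ∫ t in {t : ℝ | q.1 < |t| ∧ |t| < q.2},
              f₁ (x - t) * f₂ (x - 2 * t) * f₃ (x - 3 * t) / (t : ℂ))) r volume ≤
          C * eLpNorm f₁ p₁ volume * eLpNorm f₂ p₂ volume * eLpNorm f₃ p₃ volume) →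
      11 / 25 < r ∧
      (149 / 500 * p₁⁻¹.toReal + 1 / 2 * p₂⁻¹.toReal + 1 / 2 * p₃⁻¹.toReal ≤ 1 ∧
        1 / 2 * p₁⁻¹.toReal + 267 / 1000 * p₂⁻¹.toReal + 1 / 2 * p₃⁻¹.toReal ≤ 1 ∧
        1 / 2 * p₁⁻¹.toReal + 1 / 2 * p₂⁻¹.toReal + 149 / 500 * p₃⁻¹.toReal ≤ 1) ∧
      ∀ (G : Finset (ℤ × ℤ)) (b : ℕ), 2 ≤ b →
        (∀ p ∈ G, ∀ q ∈ G, (b : ℤ) ∣ (3 * p.2 - 2 * p.1) - (3 * q.2 - 2 * q.1) → p = q) →
        (G.card : ℝ) ^ r⁻¹.toReal ≤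
          (b : ℝ) * ((G.image (fun p : ℤ × ℤ => 2 * p.2 - p.1)).card : ℝ) ^ p₁⁻¹.toReal
            * ((G.image Prod.snd).card : ℝ) ^ p₂⁻¹.toReal
            * ((G.image Prod.fst).card : ℝ) ^ p₃⁻¹.toReal) ∧
    (∀ ε : ℝ, 0 < ε → ∃ p₁ p₂ p₃ r : ℝ≥0∞,
      (1 < p₁ ∧ 1 < p₂ ∧ 1 < p₃ ∧ 0 < r ∧ r < ⊤ ∧ r⁻¹ = p₁⁻¹ + p₂⁻¹ + p₃⁻¹) ∧
      1 / 2 - ε < r.toReal ∧ r.toReal < 1 / 2 ∧
      ¬ ∃ C : ℝ≥0, ∀ f₁ f₂ f₃ : SchwartzMap ℝ ℂ,
        eLpNorm (fun x : ℝ => limUnder ((𝓝[>] (0 : ℝ)) ×ˢ (atTop : Filter ℝ))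
            (fun q : ℝ × ℝ => ∫ t in {t : ℝ | q.1 < |t| ∧ |t| < q.2},
              f₁ (x - t) * f₂ (x - 2 * t) * f₃ (x - 3 * t) / (t : ℂ))) r volume ≤
          C * eLpNorm f₁ p₁ volume * eLpNorm f₂ p₂ volume * eLpNorm f₃ p₃ volume) := by
  refine ⟨?_, ?_⟩
  · intro p₁ p₂ p₃ r h1 h2 h3 hr0 hrtop hH hB
    have hT : IsHolderTuple p₁ p₂ p₃ r := ⟨h1, h2, h3, hr0, hrtop, hH⟩
    have hBd : BoundedAt p₁ p₂ p₃ r := hB
    refine ⟨?_, ⟨?_, ?_, ?_⟩, ?_⟩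
    · exact not_le.mp fun hle => unbounded_of_r_le hT hle hBd
    · exact not_lt.mp fun h => unbounded_of_lin hT (Or.inl h) hBd
    · exact not_lt.mp fun h => unbounded_of_lin hT (Or.inr (Or.inl h)) hBd
    · exact not_lt.mp fun h => unbounded_of_lin hT (Or.inr (Or.inr h)) hBd
    · intro G b hb hinj
      exact not_lt.mp fun hcrit => unbounded_of_config G b hb hinj hT hcrit hBd
  · intro ε hε
    obtain ⟨p₁, p₂, p₃, r, hT, h1, h2, hB⟩ := unbounded_near_half ε hε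
    exact ⟨p₁, p₂, p₃, r, hT, h1, h2, hB⟩

end Vale.Agent.Results.P141.B_NecessaryConditions
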